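import Mathlib

/-!
Definitions for the strong thin tree conjecture: finite loopless multigraphs, cuts,
edge connectivity, spanning trees (as sets of edge copies) and thinness.
-/

namespace Vale.Agent.P061

/-- A loopless undirected multigraph with vertex type `V` and with `E` the type of edge
copies: every edge copy `e` has an unordered pair `ends e` of two distinct endpoints.
Different edge copies may have the same endpoints (parallel edges). -/
structure Multigraph (V E : Type) where
  ends : E → Sym2 V
  loopless : ∀ e, ¬ (ends e).IsDiag

namespace Multigraph

variable {V E : Type} [Fintype V] [Fintype E]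

open Classical in
/-- `δ_G(S)`: the edge copies with exactly one endpoint in `S`. -/
noncomputable def cut (G : Multigraph V E) (S : Finset V) : Finset E :=
  Finset.univ.filter fun e => ∃ x ∈ S, ∃ y ∉ S, G.ends e = s(x, y)

/-- `G` is `k`-edge-connected: `|δ_G(S)| ≥ k` for every nonempty proper vertex set `S`. -/
def EdgeConnected (G : Multigraph V E) (k : ℕ) : Prop :=
  ∀ S : Finset V, S.Nonempty → S ≠ Finset.univ → k ≤ (G.cut S).card

open Classical in
/-- The number of edge copies at the vertex `v`. -/
noncomputable def degree (G : Multigraph V E) (v : V) : ℕ :=
  (Finset.univ.filter fun e => v ∈ G.ends e).card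

open Classical in
/-- The number of edge copies joining `x` and `y`. -/
noncomputable def mult (G : Multigraph V E) (x y : V) : ℕ :=
  (Finset.univ.filter fun e => G.ends e = s(x, y)).card

/-- `T` is (the edge set of) a spanning tree of `G`: it consists of exactly `|V| - 1` edge
copies and the simple graph on `V` formed by their endpoint pairs is a tree. -/
def IsSpanningTree (G : Multigraph V E) (T : Finset E) : Prop :=
  T.card + 1 = Fintype.card V ∧ (SimpleGraph.fromEdgeSet (G.ends '' (T : Set E))).IsTree

open Classical in
/-- `T` is `α`-thin in `G`: `|δ_T(S)| ≤ α |δ_G(S)|` for every nonempty proper vertex set. -/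
def IsThin (G : Multigraph V E) (α : ℝ) (T : Finset E) : Prop :=
  ∀ S : Finset V, S.Nonempty → S ≠ Finset.univ →
    ((T ∩ G.cut S).card : ℝ) ≤ α * ((G.cut S).card : ℝ)

end Multigraph

end Vale.Agent.P061
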