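import Mathlib

/-!
Forests of bounded degree with few components.
-/

namespace Vale.Agent.P061

open Finset SimpleGraph

variable {V : Type} [Fintype V]

lemma ncard_edgeSet_of_isTree {T : SimpleGraph V} (hT : T.IsTree) :
    T.edgeSet.ncard + 1 = Fintype.card V := by
  classical
  have h := hT.card_edgeFinset
  rw [← h, ← SimpleGraph.coe_edgeFinset, Set.ncard_coe_finset]

lemma ncard_edgeSet_lt_of_isAcyclic [Nonempty V] {F : SimpleGraph V} (hF : F.IsAcyclic) :
    F.edgeSet.ncard < Fintype.card V := by
  classical
  have htop : (⊤ : SimpleGraph V).Connected := connected_top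
  obtain ⟨T, hFT, -, hT⟩ := htop.exists_isTree_le_of_le_of_isAcyclic le_top hF
  have h1 := ncard_edgeSet_of_isTree hT
  have h2 : F.edgeSet.ncard ≤ T.edgeSet.ncard :=
    Set.ncard_le_ncard (edgeSet_mono hFT) (Set.toFinite _)
  omega

/-- Adding an edge between two components reduces the number of components. -/
lemma card_component_sup_edge {F : SimpleGraph V} {u v : V} (huv : ¬ F.Reachable u v) :
    Nat.card (F ⊔ edge u v).ConnectedComponent + 1 ≤ Nat.card F.ConnectedComponent := by
  classical
  have hle : F ≤ F ⊔ edge u v := le_sup_left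
  have hsurj := ConnectedComponent.surjective_map_ofLE hle
  have hne : u ≠ v := fun h => huv (h ▸ Reachable.refl u)
  have hadj : (F ⊔ edge u v).Adj u v := by
    rw [sup_adj]; right; rw [edge_adj]; exact ⟨Or.inl ⟨rfl, rfl⟩, hne⟩
  rcases Nat.lt_or_ge (Nat.card (F ⊔ edge u v).ConnectedComponent)
    (Nat.card F.ConnectedComponent) with h | h
  · exact h
  · exfalso
    haveI : Fintype F.ConnectedComponent := Fintype.ofFinite _
    haveI : Fintype (F ⊔ edge u v).ConnectedComponent := Fintype.ofFinite _
    have hcard : Fintype.card F.ConnectedComponent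
        = Fintype.card (F ⊔ edge u v).ConnectedComponent := by
      have h2 := Fintype.card_le_of_surjective _ hsurj
      rw [Nat.card_eq_fintype_card, Nat.card_eq_fintype_card] at h
      omega
    have hbij := (Fintype.bijective_iff_surjective_and_card _).mpr ⟨hsurj, hcard⟩
    have heq : (F.connectedComponentMk u).map (Hom.ofLE hle)
        = (F.connectedComponentMk v).map (Hom.ofLE hle) := by
      rw [ConnectedComponent.map_mk, ConnectedComponent.map_mk]
      exact ConnectedComponent.sound hadj.reachable
    have := hbij.injective heq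
    exact huv (ConnectedComponent.exact this)

/-- In a forest `T ≥ F`, the number of edges outside `F` is controlled by the components. -/
lemma card_diff_add_card_component {T : SimpleGraph V} (hT : T.IsAcyclic) :
    ∀ (m : ℕ) (F : SimpleGraph V), F ≤ T → (T.edgeSet \ F.edgeSet).ncard = m →
      m + Nat.card T.ConnectedComponent ≤ Nat.card F.ConnectedComponent := by
  classical
  intro m
  induction m with
  | zero =>
    intro F hFT hm
    rw [zero_add]
    exact ConnectedComponent.card_le_card_of_le hFT
  | succ m ih =>
    intro F hFT hm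
    have hne : (T.edgeSet \ F.edgeSet).Nonempty := by
      rw [← Set.ncard_pos (Set.toFinite _)]; omega
    obtain ⟨e, heT, heF⟩ := hne
    induction e with
    | _ u v =>
    have hT' : T.Adj u v := heT
    have hF' : ¬ F.Adj u v := heF
    have hbridge : ¬ (T.deleteEdges {s(u, v)}).Reachable u v := by
      have := (isAcyclic_iff_forall_adj_isBridge.mp hT) hT'
      rwa [isBridge_iff] at this
    have hFdel : F ≤ T.deleteEdges {s(u, v)} := by
      intro a b hab
      rw [deleteEdges_adj]
      refine ⟨hFT hab, ?_⟩
      intro h
      rw [Set.mem_singleton_iff] at h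
      apply hF'
      have : s(a, b) ∈ F.edgeSet := hab
      rw [h] at this
      exact this
    have hnr : ¬ F.Reachable u v := fun h => hbridge (h.mono hFdel)
    have hle2 : F ⊔ edge u v ≤ T := by
      refine sup_le hFT ?_
      intro a b hab
      rw [edge_adj] at hab
      rcases hab.1 with ⟨rfl, rfl⟩ | ⟨rfl, rfl⟩
      · exact hT'
      · exact hT'.symm
    have hcount : (T.edgeSet \ (F ⊔ edge u v).edgeSet).ncard = m := by
      have hset : T.edgeSet \ F.edgeSet = insert s(u, v) (T.edgeSet \ (F ⊔ edge u v).edgeSet) := by
        ext e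
        simp only [Set.mem_diff, Set.mem_insert_iff, edgeSet_sup, Set.mem_union,
          edgeSet_edge_of_ne hT'.ne, Set.mem_singleton_iff]
        constructor
        · rintro ⟨h1, h2⟩
          by_cases h3 : e = s(u, v)
          · exact Or.inl h3
          · exact Or.inr ⟨h1, fun h => h.elim h2 h3⟩
        · rintro (rfl | ⟨h1, h2⟩)
          · exact ⟨hT', hF'⟩
          · exact ⟨h1, fun h => h2 (Or.inl h)⟩
      have hnot : s(u, v) ∉ T.edgeSet \ (F ⊔ edge u v).edgeSet := by
        simp only [Set.mem_diff, edgeSet_sup, Set.mem_union, edgeSet_edge_of_ne hT'.ne,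
          Set.mem_singleton_iff, not_and, not_not]
        intro _; simp
      have := Set.ncard_insert_of_notMem hnot (Set.toFinite _)
      rw [← hset, hm] at this
      omega
    have h1 := ih (F ⊔ edge u v) hle2 hcount
    have h2 := card_component_sup_edge hnr
    omega

/-- Every component of a finite forest has a vertex of degree at most one. -/
lemma exists_low_degree {F : SimpleGraph V} (hF : F.IsAcyclic) (c : F.ConnectedComponent) :
    ∃ u ∈ c.supp, (F.neighborSet u).ncard ≤ 1 := by
  classical
  have htree := hF.isTree_connectedComponent c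
  by_cases hn : Nontrivial c
  · obtain ⟨⟨u, hu⟩, hdeg⟩ := htree.exists_vert_degree_one_of_nontrivial
    refine ⟨u, hu, ?_⟩
    have himg : F.neighborSet u ⊆ Subtype.val '' (c.toSimpleGraph.neighborSet ⟨u, hu⟩) := by
      intro w hw
      have hw' : F.Adj u w := hw
      have hwc : w ∈ c.supp := by
        have := (ConnectedComponent.mem_supp_congr_adj c hw').mp hu
        exact this
      exact ⟨⟨w, hwc⟩, (ConnectedComponent.toSimpleGraph_adj c hu hwc).mpr hw', rfl⟩
    calc (F.neighborSet u).ncard ≤ (Subtype.val '' (c.toSimpleGraph.neighborSet ⟨u, hu⟩)).ncard :=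
          Set.ncard_le_ncard himg (Set.toFinite _)
      _ ≤ (c.toSimpleGraph.neighborSet ⟨u, hu⟩).ncard := Set.ncard_image_le (Set.toFinite _)
      _ = c.toSimpleGraph.degree ⟨u, hu⟩ := by
          rw [Set.ncard_eq_toFinset_card']; rfl
      _ ≤ 1 := hdeg.le
  · obtain ⟨u, hu⟩ := c.nonempty_supp
    refine ⟨u, hu, ?_⟩
    have hempty : F.neighborSet u = ∅ := by
      ext w
      simp only [mem_neighborSet, Set.mem_empty_iff_false, iff_false]
      intro hw
      have hwc : w ∈ c.supp := (ConnectedComponent.mem_supp_congr_adj c hw).mp hu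
      exact hn ⟨⟨u, hu⟩, ⟨w, hwc⟩, fun h => hw.ne (congrArg Subtype.val h)⟩
    rw [hempty]; simp

end Vale.Agent.P061
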