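import Mathlib
import Vale.Agent.P061.Defs
import Vale.Agent.P061.Forest

/-!
Passing between multigraphs and simple graphs / weight functions.
-/

namespace Vale.Agent.P061

open Finset SimpleGraph

variable {V E : Type} [Fintype V] [Fintype E]

namespace Multigraph

lemma mem_cut (G : Multigraph V E) (S : Finset V) (e : E) :
    e ∈ G.cut S ↔ ∃ x ∈ S, ∃ y ∉ S, G.ends e = s(x, y) := by
  classical
  simp [cut]

lemma mult_comm (G : Multigraph V E) (x y : V) : G.mult x y = G.mult y x := by
  classical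
  unfold mult
  congr 1
  ext e
  simp [Sym2.eq_swap]

lemma mult_self (G : Multigraph V E) (x : V) : G.mult x x = 0 := by
  classical
  unfold mult
  rw [Finset.card_eq_zero, Finset.filter_eq_empty_iff]
  intro e _ h
  apply G.loopless e
  rw [h]; exact Sym2.mk_isDiag_iff.mpr rfl

lemma mult_pos_iff (G : Multigraph V E) (x y : V) : 0 < G.mult x y ↔ ∃ e, G.ends e = s(x, y) := by
  classical
  unfold mult
  rw [Finset.card_pos]
  constructor
  · rintro ⟨e, he⟩
    exact ⟨e, (Finset.mem_filter.mp he).2⟩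
  · rintro ⟨e, he⟩
    exact ⟨e, Finset.mem_filter.mpr ⟨Finset.mem_univ _, he⟩⟩

lemma card_cut [DecidableEq V] (G : Multigraph V E) (S : Finset V) :
    (G.cut S).card = ∑ x ∈ S, ∑ y ∈ Sᶜ, G.mult x y := by
  classical
  have h : G.cut S = (S ×ˢ Sᶜ).biUnion fun p => univ.filter fun e => G.ends e = s(p.1, p.2) := by
    ext e
    rw [mem_cut]
    simp only [Finset.mem_biUnion, Finset.mem_product, Finset.mem_compl, Finset.mem_filter,
      Finset.mem_univ, true_and, Prod.exists]
    constructor
    · rintro ⟨x, hx, y, hy, he⟩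
      exact ⟨x, y, ⟨hx, hy⟩, he⟩
    · rintro ⟨x, y, ⟨hx, hy⟩, he⟩
      exact ⟨x, hx, y, hy, he⟩
  rw [h, Finset.card_biUnion]
  · rw [Finset.sum_product]
    refine Finset.sum_congr rfl fun x _ => Finset.sum_congr rfl fun y _ => ?_
    unfold mult
    congr 1
    ext e; simp
  · rintro ⟨x, y⟩ hp ⟨x', y'⟩ hq hne
    rw [Function.onFun, Finset.disjoint_left]
    intro e he he'
    rw [Finset.mem_filter] at he he'
    rw [Finset.mem_coe, Finset.mem_product, Finset.mem_compl] at hp hq
    have h1 : s(x, y) = s(x', y') := he.2.symm.trans he'.2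
    rw [Sym2.eq_iff] at h1
    rcases h1 with ⟨h2, h3⟩ | ⟨h2, h3⟩
    · exact hne (by rw [Prod.mk.injEq]; exact ⟨h2, h3⟩)
    · simp only at hp hq
      exact hq.2 (h2 ▸ hp.1)

lemma degree_eq_cut (G : Multigraph V E) (v : V) : G.degree v = (G.cut {v}).card := by
  classical
  unfold degree
  congr 1
  ext e
  rw [mem_cut]
  simp only [Finset.mem_filter, Finset.mem_univ, true_and, Finset.mem_singleton, exists_eq_left]
  constructor
  · intro h
    obtain ⟨y, hy⟩ := Sym2.mem_iff_exists.mp h
    refine ⟨y, ?_, hy⟩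
    rintro rfl
    apply G.loopless e
    rw [hy]; exact Sym2.mk_isDiag_iff.mpr rfl
  · rintro ⟨y, _, hy⟩
    rw [hy]; exact Sym2.mem_mk_left _ _

lemma degree_eq_sum (G : Multigraph V E) (v : V) : G.degree v = ∑ y, G.mult v y := by
  classical
  rw [degree_eq_cut, card_cut, Finset.sum_singleton]
  rw [← Finset.sum_add_sum_compl {v} (fun y => G.mult v y), Finset.sum_singleton, mult_self,
    zero_add]

/-- The underlying simple graph. -/
def supp (G : Multigraph V E) : SimpleGraph V := SimpleGraph.fromEdgeSet (Set.range G.ends)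

lemma supp_adj (G : Multigraph V E) (x y : V) : G.supp.Adj x y ↔ 0 < G.mult x y := by
  rw [mult_pos_iff, supp, fromEdgeSet_adj]
  constructor
  · rintro ⟨⟨e, he⟩, _⟩
    exact ⟨e, he⟩
  · rintro ⟨e, he⟩
    refine ⟨⟨e, he⟩, ?_⟩
    rintro rfl
    apply G.loopless e
    rw [he]; exact Sym2.mk_isDiag_iff.mpr rfl

lemma supp_connected (G : Multigraph V E) [Nonempty V] {k : ℕ} (hk : 1 ≤ k)
    (h : G.EdgeConnected k) : G.supp.Connected := by
  classical
  refine ⟨fun u v => ?_⟩
  by_contra hcon
  let S : Finset V := univ.filter fun w => G.supp.Reachable u w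
  have hu : u ∈ S := by simp [S]
  have hv : v ∉ S := by simp [S, hcon]
  have hcut := h S ⟨u, hu⟩ (fun h => hv (h ▸ Finset.mem_univ v))
  have hpos : 0 < (G.cut S).card := by omega
  obtain ⟨e, he⟩ := Finset.card_pos.mp hpos
  obtain ⟨x, hx, y, hy, hxy⟩ := (G.mem_cut S e).mp he
  have hadj : G.supp.Adj x y := (G.supp_adj x y).mpr ((G.mult_pos_iff x y).mpr ⟨e, hxy⟩)
  have hx' : G.supp.Reachable u x := by simpa [S] using hx
  exact hy (by simp [S, hx'.trans hadj.reachable])

open Classical in
/-- The ordered crossing pairs of a simple graph. -/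
noncomputable def crossing (T : SimpleGraph V) (S : Finset V) : Finset (V × V) :=
  (S ×ˢ Sᶜ).filter fun p => T.Adj p.1 p.2

lemma mem_crossing (T : SimpleGraph V) (S : Finset V) (x y : V) :
    (x, y) ∈ crossing T S ↔ (x ∈ S ∧ y ∉ S) ∧ T.Adj x y := by
  classical
  unfold crossing
  rw [Finset.mem_filter, Finset.mem_product, Finset.mem_compl]

open Classical in
/-- Lifting a spanning tree of the underlying simple graph to the multigraph. -/
lemma exists_lift (G : Multigraph V E) {T : SimpleGraph V} (hT : T.IsTree) (hle : T ≤ G.supp) :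
    ∃ T' : Finset E, G.IsSpanningTree T' ∧
      ∀ S, (T' ∩ G.cut S).card = (crossing T S).card := by
  have hchoice : ∀ e : T.edgeSet, ∃ f : E, G.ends f = e := by
    rintro ⟨e, he⟩
    induction e with
    | _ x y =>
    have h1 : G.supp.Adj x y := hle he
    exact (G.mult_pos_iff x y).mp ((G.supp_adj x y).mp h1)
  choose f hf using hchoice
  have hinj : Function.Injective f := by
    intro a b hab
    apply Subtype.ext
    rw [← hf a, ← hf b, hab]
  refine ⟨univ.image f, ⟨?_, ?_⟩, ?_⟩
  · rw [Finset.card_image_of_injective _ hinj, Finset.card_univ]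
    have := ncard_edgeSet_of_isTree hT
    rwa [← Nat.card_coe_set_eq, Nat.card_eq_fintype_card] at this
  · have himg : G.ends '' ((univ.image f : Finset E) : Set E) = T.edgeSet := by
      ext e
      simp only [Finset.coe_image, Finset.coe_univ, Set.image_univ, Set.mem_image, Set.mem_range]
      constructor
      · rintro ⟨_, ⟨a, rfl⟩, rfl⟩
        rw [hf]; exact a.2
      · intro he
        exact ⟨f ⟨e, he⟩, ⟨⟨e, he⟩, rfl⟩, hf _⟩
    rw [himg, fromEdgeSet_edgeSet]
    exact hT
  · intro S
    symm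
    refine Finset.card_bij (fun p hp => f ⟨s(p.1, p.2), by
      have := (mem_crossing T S p.1 p.2).mp hp
      exact this.2⟩) ?_ ?_ ?_
    · rintro ⟨x, y⟩ hp
      have h1 := (mem_crossing T S x y).mp hp
      rw [Finset.mem_inter]
      refine ⟨Finset.mem_image_of_mem _ (Finset.mem_univ _), ?_⟩
      rw [mem_cut]
      exact ⟨x, h1.1.1, y, h1.1.2, hf _⟩
    · rintro ⟨x, y⟩ hp ⟨x', y'⟩ hq heq
      have h1 := (mem_crossing T S x y).mp hp
      have h2 := (mem_crossing T S x' y').mp hq
      have h3 := hinj heq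
      have h4 : s(x, y) = s(x', y') := congrArg Subtype.val h3
      rw [Sym2.eq_iff] at h4
      rcases h4 with ⟨h5, h6⟩ | ⟨h5, h6⟩
      · rw [Prod.mk.injEq]; exact ⟨h5, h6⟩
      · exact absurd (h5 ▸ h1.1.1) h2.1.2
    · intro e he
      rw [Finset.mem_inter, mem_cut] at he
      obtain ⟨he1, x, hx, y, hy, hxy⟩ := he
      obtain ⟨a, -, rfl⟩ := Finset.mem_image.mp he1
      have ha : (a : Sym2 V) = s(x, y) := by rw [← hf a, hxy]
      have hadj : T.Adj x y := by
        have : (a : Sym2 V) ∈ T.edgeSet := a.2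
        rw [ha] at this; exact this
      refine ⟨(x, y), (mem_crossing T S x y).mpr ⟨⟨hx, hy⟩, hadj⟩, ?_⟩
      congr 1
      apply Subtype.ext
      exact ha.symm

end Multigraph

end Vale.Agent.P061
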