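import Mathlib
import Vale.Agent.P061.Forest

/-!
In a simple graph of large minimum degree there is a forest of bounded degree with a bounded
number of components.
-/

namespace Vale.Agent.P061

open Finset SimpleGraph

variable {V : Type} [Fintype V]

lemma sum_ncard_neighborSet (F : SimpleGraph V) :
    ∑ v, (F.neighborSet v).ncard = 2 * F.edgeSet.ncard := by
  classical
  have h := F.sum_degrees_eq_twice_card_edges
  have h1 : ∀ v, (F.neighborSet v).ncard = F.degree v := by
    intro v
    rw [Set.ncard_eq_toFinset_card']; rfl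
  have h2 : F.edgeSet.ncard = F.edgeFinset.card := by
    rw [← SimpleGraph.coe_edgeFinset, Set.ncard_coe_finset]
  simp_rw [h1]
  rw [h, h2]

lemma neighborSet_sup_edge_ncard_le (F : SimpleGraph V) (u v w : V) :
    ((F ⊔ edge u v).neighborSet w).ncard ≤ (F.neighborSet w).ncard + 1 := by
  classical
  by_cases hwu : w = u
  · have : (F ⊔ edge u v).neighborSet w ⊆ insert v (F.neighborSet w) := by
      intro a ha
      rw [mem_neighborSet, sup_adj, edge_adj] at ha
      rcases ha with h | ⟨⟨h1, h2⟩ | ⟨h1, h2⟩, h3⟩
      · exact Set.mem_insert_of_mem _ h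
      · exact h2 ▸ Set.mem_insert _ _
      · exact absurd (hwu.trans h2.symm) h3
    calc _ ≤ (insert v (F.neighborSet w)).ncard := Set.ncard_le_ncard this (Set.toFinite _)
      _ ≤ _ := Set.ncard_insert_le _ _
  · have : (F ⊔ edge u v).neighborSet w ⊆ insert u (F.neighborSet w) := by
      intro a ha
      rw [mem_neighborSet, sup_adj, edge_adj] at ha
      rcases ha with h | ⟨⟨h1, h2⟩ | ⟨h1, h2⟩, h3⟩
      · exact Set.mem_insert_of_mem _ h
      · exact absurd h1 hwu
      · exact h2 ▸ Set.mem_insert _ _
    calc _ ≤ (insert u (F.neighborSet w)).ncard := Set.ncard_le_ncard this (Set.toFinite _)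
      _ ≤ _ := Set.ncard_insert_le _ _

lemma neighborSet_sup_edge_of_ne (F : SimpleGraph V) {u v w : V} (hu : w ≠ u) (hv : w ≠ v) :
    (F ⊔ edge u v).neighborSet w = F.neighborSet w := by
  ext a
  rw [mem_neighborSet, mem_neighborSet, sup_adj, edge_adj]
  constructor
  · rintro (h | ⟨⟨h1, h2⟩ | ⟨h1, h2⟩, h3⟩)
    · exact h
    · exact absurd h1 hu
    · exact absurd h1 hv
  · exact fun h => Or.inl h

theorem exists_forest_few_components [Nonempty V] (R : SimpleGraph V) {η : ℝ}
    {D : ℕ} (hD : 2 ≤ D) (hDη : 4 ≤ (D : ℝ) * η)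
    (hdeg : ∀ v, η * (Fintype.card V : ℝ) ≤ ((R.neighborSet v).ncard : ℝ)) :
    ∃ F : SimpleGraph V, F ≤ R ∧ F.IsAcyclic ∧ (∀ v, (F.neighborSet v).ncard ≤ D) ∧
      (Nat.card F.ConnectedComponent : ℝ) * η ≤ 2 := by
  classical
  set n : ℝ := (Fintype.card V : ℝ) with hn
  have hnpos : 0 < n := by
    rw [hn]; exact_mod_cast Fintype.card_pos
  have hDpos : (0 : ℝ) < D := by
    have : 0 < D := by omega
    exact_mod_cast this
  have hηpos : 0 < η := by
    by_contra h
    push Not at h
    have : (D : ℝ) * η ≤ 0 := mul_nonpos_of_nonneg_of_nonpos hDpos.le h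
    linarith
  let P : Set (SimpleGraph V) := {F | F ≤ R ∧ F.IsAcyclic ∧ ∀ v, (F.neighborSet v).ncard ≤ D}
  have hPne : P.Nonempty := by
    refine ⟨⊥, bot_le, isAcyclic_bot, fun v => ?_⟩
    have : (⊥ : SimpleGraph V).neighborSet v = ∅ := by ext a; simp
    rw [this]; simp
  obtain ⟨F, hFmax⟩ := (Set.toFinite P).exists_maximal hPne
  have hF : F ∈ P := hFmax.prop
  obtain ⟨hFR, hFac, hFdeg⟩ := hF
  refine ⟨F, hFR, hFac, hFdeg, ?_⟩
  -- saturated vertices
  set X : Finset V := univ.filter fun v => D ≤ (F.neighborSet v).ncard with hX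
  have hXcard : (X.card : ℝ) * D ≤ 2 * n := by
    have h1 : X.card * D ≤ ∑ v ∈ X, (F.neighborSet v).ncard := by
      rw [← smul_eq_mul]
      exact Finset.card_nsmul_le_sum _ _ _ fun v hv => (Finset.mem_filter.mp hv).2
    have h2 : ∑ v ∈ X, (F.neighborSet v).ncard ≤ ∑ v, (F.neighborSet v).ncard :=
      Finset.sum_le_sum_of_subset (Finset.subset_univ _)
    have h3 := sum_ncard_neighborSet F
    have h4 := ncard_edgeSet_lt_of_isAcyclic hFac
    have h5 : X.card * D ≤ 2 * Fintype.card V := by omega
    rw [hn]; exact_mod_cast h5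
  -- each component is large
  have hcomp : ∀ c : F.ConnectedComponent, η / 2 * n ≤ ((c.supp).ncard : ℝ) := by
    intro c
    obtain ⟨u, huc, hu1⟩ := exists_low_degree hFac c
    have hsub : R.neighborSet u \ (X : Set V) ⊆ c.supp := by
      rintro v ⟨hRv, hvX⟩
      by_contra hvc
      have hnr : ¬ F.Reachable u v := by
        intro h
        apply hvc
        have h1 : F.connectedComponentMk u = c := huc
        have h2 : F.connectedComponentMk v = F.connectedComponentMk u :=
          ConnectedComponent.sound h.symm
        exact h2.trans h1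
      have hRuv : R.Adj u v := hRv
      have hvX' : (F.neighborSet v).ncard < D := by
        by_contra h
        push Not at h
        exact hvX (by rw [hX]; simp [h])
      have hmem : F ⊔ edge u v ∈ P := by
        refine ⟨?_, hFac.sup_edge_of_not_reachable hnr, ?_⟩
        · refine sup_le hFR ?_
          intro a b hab
          rw [edge_adj] at hab
          rcases hab.1 with ⟨rfl, rfl⟩ | ⟨rfl, rfl⟩
          · exact hRuv
          · exact hRuv.symm
        · intro w
          by_cases hwu : w = u
          · have := neighborSet_sup_edge_ncard_le F u v w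
            rw [hwu] at this ⊢
            omega
          · by_cases hwv : w = v
            · have := neighborSet_sup_edge_ncard_le F u v w
              rw [hwv] at this ⊢
              omega
            · rw [neighborSet_sup_edge_of_ne F hwu hwv]
              exact hFdeg w
      have hle := hFmax.le_of_ge hmem le_sup_left
      have hadj : F.Adj u v := by
        apply hle
        rw [sup_adj, edge_adj]
        exact Or.inr ⟨Or.inl ⟨rfl, rfl⟩, hRuv.ne⟩
      exact hnr hadj.reachable
    have h1 : (R.neighborSet u \ (X : Set V)).ncard ≤ (c.supp).ncard :=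
      Set.ncard_le_ncard hsub (Set.toFinite _)
    have h2 : (R.neighborSet u).ncard ≤ (R.neighborSet u \ (X : Set V)).ncard + X.card := by
      have := Set.ncard_le_ncard_sdiff_add_ncard (R.neighborSet u) (X : Set V) (Set.toFinite _)
      rwa [Set.ncard_coe_finset] at this
    have h3 : (R.neighborSet u).ncard ≤ (c.supp).ncard + X.card := by omega
    have h4 : η * n ≤ ((c.supp).ncard : ℝ) + X.card := by
      refine (hdeg u).trans ?_
      exact_mod_cast h3
    have h5 : (X.card : ℝ) ≤ η / 2 * n := by
      have h6 : (X.card : ℝ) * D ≤ (η / 2 * n) * D := by nlinarith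
      exact le_of_mul_le_mul_right h6 hDpos
    linarith
  have hsum : ∑ c : F.ConnectedComponent, ((c.supp).ncard) = Fintype.card V := by
    have h := Finset.card_eq_sum_card_fiberwise (s := (univ : Finset V))
      (t := (univ : Finset F.ConnectedComponent)) (f := F.connectedComponentMk)
      (fun v _ => Finset.mem_coe.mpr (Finset.mem_univ _))
    rw [Finset.card_univ] at h
    rw [h]
    refine Finset.sum_congr rfl fun c _ => ?_
    rw [Set.ncard_eq_toFinset_card']
    congr 1
    ext v
    simp [ConnectedComponent.mem_supp_iff]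
  have hfin : (Nat.card F.ConnectedComponent : ℝ) * (η / 2 * n) ≤ n := by
    rw [Nat.card_eq_fintype_card]
    calc (Fintype.card F.ConnectedComponent : ℝ) * (η / 2 * n)
        = ∑ _c : F.ConnectedComponent, (η / 2 * n) := by
          rw [Finset.sum_const, nsmul_eq_mul, Finset.card_univ]
      _ ≤ ∑ c : F.ConnectedComponent, ((c.supp).ncard : ℝ) :=
          Finset.sum_le_sum fun c _ => hcomp c
      _ = n := by rw [hn, ← hsum]; push_cast; rfl
  have : ((Nat.card F.ConnectedComponent : ℝ) * η) * n ≤ 2 * n := by nlinarith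
  exact le_of_mul_le_mul_right this hnpos

end Vale.Agent.P061
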