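import Mathlib

/-!
Weighted graphs with weights in `[0,1]`: three-step walks, robust pairs, and the charging
argument bounding the number of robust pairs across a cut.
-/

namespace Vale.Agent.P061

open Finset

variable {V : Type} [Fintype V]

/-- weight of the three-step walks from `x` to `z` -/
def walk3 (w : V → V → ℝ) (x z : V) : ℝ := ∑ u, ∑ v, w x u * w u v * w v z

lemma walk3_nonneg {w : V → V → ℝ} (h0 : ∀ x y, 0 ≤ w x y) (x z : V) : 0 ≤ walk3 w x z :=
  Finset.sum_nonneg fun _ _ => Finset.sum_nonneg fun _ _ =>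
    mul_nonneg (mul_nonneg (h0 _ _) (h0 _ _)) (h0 _ _)

/-- upper bound for the number of three-step walks by the degree -/
lemma walk3_le {w : V → V → ℝ} (h0 : ∀ x y, 0 ≤ w x y) (h1 : ∀ x y, w x y ≤ 1) (x z : V) :
    walk3 w x z ≤ (Fintype.card V : ℝ) * ∑ u, w x u := by
  unfold walk3
  calc ∑ u, ∑ v, w x u * w u v * w v z
      ≤ ∑ u, ∑ _v : V, w x u := by
        refine Finset.sum_le_sum fun u _ => Finset.sum_le_sum fun v _ => ?_
        have h2 : w x u * w u v ≤ w x u * 1 := mul_le_mul_of_nonneg_left (h1 _ _) (h0 _ _)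
        have h3 : w x u * w u v * w v z ≤ w x u * w u v * 1 :=
          mul_le_mul_of_nonneg_left (h1 _ _) (mul_nonneg (h0 _ _) (h0 _ _))
        linarith
    _ = (Fintype.card V : ℝ) * ∑ u, w x u := by
        simp [Finset.sum_const, Finset.mul_sum]

/-- splitting the three-step walks at their first crossing of the cut -/
lemma walk3_cut [DecidableEq V] {w : V → V → ℝ} (h0 : ∀ x y, 0 ≤ w x y) (h1 : ∀ x y, w x y ≤ 1)
    (S : Finset V) (x z : V) :
    walk3 w x z ≤ (Fintype.card V : ℝ) * (∑ u ∈ Sᶜ, w x u) + (∑ u ∈ S, ∑ v ∈ Sᶜ, w u v)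
      + (Fintype.card V : ℝ) * (∑ v ∈ S, w v z) := by
  classical
  have hsplit : walk3 w x z = (∑ u ∈ Sᶜ, ∑ v, w x u * w u v * w v z)
      + (∑ u ∈ S, ∑ v ∈ Sᶜ, w x u * w u v * w v z) + (∑ u ∈ S, ∑ v ∈ S, w x u * w u v * w v z) := by
    unfold walk3
    rw [← Finset.sum_add_sum_compl S (fun u => ∑ v, w x u * w u v * w v z)]
    have : ∑ u ∈ S, ∑ v, w x u * w u v * w v z = (∑ u ∈ S, ∑ v ∈ Sᶜ, w x u * w u v * w v z)
        + (∑ u ∈ S, ∑ v ∈ S, w x u * w u v * w v z) := by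
      rw [← Finset.sum_add_distrib]
      refine Finset.sum_congr rfl fun u _ => ?_
      rw [← Finset.sum_add_sum_compl S (fun v => w x u * w u v * w v z)]
      ring
    rw [this]; ring
  rw [hsplit]
  have hA : (∑ u ∈ Sᶜ, ∑ v, w x u * w u v * w v z) ≤ (Fintype.card V : ℝ) * (∑ u ∈ Sᶜ, w x u) := by
    rw [Finset.mul_sum]
    refine Finset.sum_le_sum fun u _ => ?_
    calc ∑ v, w x u * w u v * w v z ≤ ∑ _v : V, w x u := by
          refine Finset.sum_le_sum fun v _ => ?_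
          have h2 : w x u * w u v ≤ w x u * 1 := mul_le_mul_of_nonneg_left (h1 _ _) (h0 _ _)
          have h3 : w x u * w u v * w v z ≤ w x u * w u v * 1 :=
            mul_le_mul_of_nonneg_left (h1 _ _) (mul_nonneg (h0 _ _) (h0 _ _))
          linarith
      _ = (Fintype.card V : ℝ) * w x u := by simp [Finset.sum_const]
  have hB : (∑ u ∈ S, ∑ v ∈ Sᶜ, w x u * w u v * w v z) ≤ ∑ u ∈ S, ∑ v ∈ Sᶜ, w u v := by
    refine Finset.sum_le_sum fun u _ => Finset.sum_le_sum fun v _ => ?_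
    have h2 : w x u * w u v ≤ 1 * w u v := mul_le_mul_of_nonneg_right (h1 _ _) (h0 _ _)
    have h3 : w x u * w u v * w v z ≤ w x u * w u v * 1 :=
      mul_le_mul_of_nonneg_left (h1 _ _) (mul_nonneg (h0 _ _) (h0 _ _))
    linarith
  have hC : (∑ u ∈ S, ∑ v ∈ S, w x u * w u v * w v z) ≤ (Fintype.card V : ℝ) * (∑ v ∈ S, w v z) := by
    rw [Finset.sum_comm, Finset.mul_sum]
    refine Finset.sum_le_sum fun v _ => ?_
    calc ∑ u ∈ S, w x u * w u v * w v z ≤ ∑ _u ∈ S, w v z := by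
          refine Finset.sum_le_sum fun u _ => ?_
          have h2 : w x u * w u v ≤ 1 * 1 := mul_le_mul (h1 _ _) (h1 _ _) (h0 _ _) zero_le_one
          have h3 : w x u * w u v * w v z ≤ 1 * 1 * w v z :=
            mul_le_mul_of_nonneg_right h2 (h0 _ _)
          linarith
      _ = (S.card : ℝ) * w v z := by simp [Finset.sum_const]
      _ ≤ (Fintype.card V : ℝ) * w v z := by
          refine mul_le_mul_of_nonneg_right ?_ (h0 _ _)
          exact_mod_cast Finset.card_le_univ S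
  linarith

/-- In a dense weighted graph every vertex has linearly many robust neighbours. -/
lemma card_robust_ge {w : V → V → ℝ} (h0 : ∀ x y, 0 ≤ w x y) (h1 : ∀ x y, w x y ≤ 1)
    (hsymm : ∀ x y, w x y = w y x) {δ : ℝ} (hδ : 0 < δ)
    (hdeg : ∀ x, δ * (Fintype.card V : ℝ) ≤ ∑ y, w x y) (x : V) :
    δ ^ 3 / 2 * (Fintype.card V : ℝ) ≤
      ((univ.filter fun z => 0 < w x z ∧
        δ ^ 3 / 2 * (Fintype.card V : ℝ) ^ 2 ≤ walk3 w x z).card : ℝ) := by
  classical
  set n : ℝ := (Fintype.card V : ℝ) with hn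
  have hVpos : 0 < Fintype.card V := Fintype.card_pos_iff.mpr ⟨x⟩
  have hnpos : 0 < n := by rw [hn]; exact_mod_cast hVpos
  set d : ℝ := ∑ y, w x y with hd
  have hdpos : 0 < d := lt_of_lt_of_le (mul_pos hδ hnpos) (hdeg x)
  set p : V → ℝ := fun v => ∑ u, w x u * w u v with hp
  -- the weighted sum of robustness over the neighbours is a sum of squares
  have hsq : ∑ z, w x z * walk3 w x z = ∑ v, p v ^ 2 := by
    have : ∀ z, w x z * walk3 w x z = ∑ v, p v * (w x z * w z v) := by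
      intro z
      unfold walk3
      rw [Finset.sum_comm, Finset.mul_sum]
      refine Finset.sum_congr rfl fun v _ => ?_
      rw [hp]
      simp only
      rw [Finset.sum_mul, Finset.mul_sum]
      refine Finset.sum_congr rfl fun u _ => ?_
      rw [hsymm z v]; ring
    simp_rw [this]
    rw [Finset.sum_comm]
    refine Finset.sum_congr rfl fun v _ => ?_
    rw [← Finset.mul_sum, sq]
  have hpsum : δ * n * d ≤ ∑ v, p v := by
    rw [hp]
    simp only
    rw [Finset.sum_comm, hd, Finset.mul_sum]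
    refine Finset.sum_le_sum fun u _ => ?_
    rw [← Finset.mul_sum, mul_comm (δ * n) (w x u)]
    exact mul_le_mul_of_nonneg_left (hdeg u) (h0 _ _)
  have hCS : (∑ v, p v) ^ 2 ≤ n * ∑ v, p v ^ 2 := by
    have := sq_sum_le_card_mul_sum_sq (s := (univ : Finset V)) (f := p)
    simpa [hn] using this
  have hlow : δ ^ 3 * n ^ 2 * d ≤ ∑ z, w x z * walk3 w x z := by
    rw [hsq]
    have h2 : (δ * n * d) ^ 2 ≤ (∑ v, p v) ^ 2 :=
      pow_le_pow_left₀ (by positivity) hpsum 2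
    have h3 : (δ * n * d) ^ 2 ≤ n * ∑ v, p v ^ 2 := h2.trans hCS
    have h4 : n * (δ ^ 2 * n * d ^ 2) ≤ n * ∑ v, p v ^ 2 := by
      calc n * (δ ^ 2 * n * d ^ 2) = (δ * n * d) ^ 2 := by ring
        _ ≤ _ := h3
    have h5 : δ ^ 2 * n * d ^ 2 ≤ ∑ v, p v ^ 2 := le_of_mul_le_mul_left h4 hnpos
    have h6 : δ ^ 3 * n ^ 2 * d ≤ δ ^ 2 * n * d ^ 2 := by
      have : δ ^ 2 * n * d * (δ * n) ≤ δ ^ 2 * n * d * d :=
        mul_le_mul_of_nonneg_left (hdeg x) (by positivity)
      nlinarith [this]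
    linarith
  set R := univ.filter fun z => 0 < w x z ∧ δ ^ 3 / 2 * n ^ 2 ≤ walk3 w x z with hR
  have hup : ∑ z, w x z * walk3 w x z ≤ (R.card : ℝ) * (n * d) + δ ^ 3 / 2 * n ^ 2 * d := by
    rw [← Finset.sum_add_sum_compl R]
    have hA : ∑ z ∈ R, w x z * walk3 w x z ≤ (R.card : ℝ) * (n * d) := by
      rw [← nsmul_eq_mul]
      refine Finset.sum_le_card_nsmul _ _ _ fun z _ => ?_
      have h2 := walk3_le h0 h1 x z
      have h3 : w x z * walk3 w x z ≤ 1 * walk3 w x z :=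
        mul_le_mul_of_nonneg_right (h1 _ _) (walk3_nonneg h0 _ _)
      linarith
    have hB : ∑ z ∈ Rᶜ, w x z * walk3 w x z ≤ δ ^ 3 / 2 * n ^ 2 * d := by
      have h2 : ∑ z ∈ Rᶜ, w x z * walk3 w x z ≤ ∑ z ∈ Rᶜ, w x z * (δ ^ 3 / 2 * n ^ 2) := by
        refine Finset.sum_le_sum fun z hz => ?_
        rw [Finset.mem_compl, hR, Finset.mem_filter] at hz
        by_cases hw : 0 < w x z
        · have h3 : walk3 w x z ≤ δ ^ 3 / 2 * n ^ 2 := by
            by_contra hcon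
            exact hz ⟨Finset.mem_univ _, hw, le_of_lt (not_le.mp hcon)⟩
          exact mul_le_mul_of_nonneg_left h3 (h0 _ _)
        · have h3 : w x z = 0 := le_antisymm (not_lt.mp hw) (h0 _ _)
          rw [h3]; simp
      have h3 : ∑ z ∈ Rᶜ, w x z * (δ ^ 3 / 2 * n ^ 2) ≤ ∑ z, w x z * (δ ^ 3 / 2 * n ^ 2) :=
        Finset.sum_le_sum_of_subset_of_nonneg (Finset.subset_univ _)
          fun z _ _ => mul_nonneg (h0 _ _) (by positivity)
      have h4 : ∑ z, w x z * (δ ^ 3 / 2 * n ^ 2) = d * (δ ^ 3 / 2 * n ^ 2) := by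
        rw [hd, Finset.sum_mul]
      linarith
    linarith
  have hfin : (δ ^ 3 / 2 * n) * (n * d) ≤ (R.card : ℝ) * (n * d) := by nlinarith [hlow, hup]
  exact le_of_mul_le_mul_right hfin (mul_pos hnpos hdpos)

/-- The charging argument: a family of robust ordered pairs from `S` to its complement,
in which every vertex is used at most `D` times, is small compared with the weight of the cut. -/
lemma crossing_le [DecidableEq V] {w : V → V → ℝ} (h0 : ∀ x y, 0 ≤ w x y) (h1 : ∀ x y, w x y ≤ 1)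
    (S : Finset V) (M : Finset (V × V)) (hM : ∀ p ∈ M, p.1 ∈ S ∧ p.2 ∈ Sᶜ)
    {D : ℕ} (hD1 : ∀ x ∈ S, (M.filter fun p => p.1 = x).card ≤ D)
    (hD2 : ∀ z ∈ Sᶜ, (M.filter fun p => p.2 = z).card ≤ D)
    (hMn : M.card ≤ Fintype.card V) {c : ℝ}
    (hrob : ∀ p ∈ M, c * (Fintype.card V : ℝ) ^ 2 ≤ walk3 w p.1 p.2) :
    c * (Fintype.card V : ℝ) * (M.card : ℝ) ≤ (2 * D + 1) * ∑ u ∈ S, ∑ v ∈ Sᶜ, w u v := by
  classical
  set n : ℝ := (Fintype.card V : ℝ) with hn
  set W : ℝ := ∑ u ∈ S, ∑ v ∈ Sᶜ, w u v with hW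
  have hWnn : 0 ≤ W := Finset.sum_nonneg fun u _ => Finset.sum_nonneg fun v _ => h0 _ _
  rcases Nat.eq_zero_or_pos (Fintype.card V) with h | hpos
  · rw [hn, h]; simp only [Nat.cast_zero, mul_zero, zero_mul]
    positivity
  have hnpos : 0 < n := by rw [hn]; exact_mod_cast hpos
  have hsum : (M.card : ℝ) * (c * n ^ 2) ≤ ∑ p ∈ M, walk3 w p.1 p.2 := by
    rw [← nsmul_eq_mul]
    exact Finset.card_nsmul_le_sum _ _ _ hrob
  have hA : ∑ p ∈ M, (∑ u ∈ Sᶜ, w p.1 u) ≤ D * W := by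
    have hmaps : ∀ p ∈ M, p.1 ∈ S := fun p hp => (hM p hp).1
    rw [← Finset.sum_fiberwise_of_maps_to hmaps]
    rw [hW, Finset.mul_sum]
    refine Finset.sum_le_sum fun x hx => ?_
    have : ∑ p ∈ M.filter (fun p => p.1 = x), (∑ u ∈ Sᶜ, w p.1 u)
        = ((M.filter fun p => p.1 = x).card : ℝ) * ∑ u ∈ Sᶜ, w x u := by
      rw [← nsmul_eq_mul, ← Finset.sum_const]
      refine Finset.sum_congr rfl fun p hp => ?_
      rw [(Finset.mem_filter.mp hp).2]
    rw [this]
    refine mul_le_mul_of_nonneg_right ?_ (Finset.sum_nonneg fun u _ => h0 _ _)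
    exact_mod_cast hD1 x hx
  have hC : ∑ p ∈ M, (∑ v ∈ S, w v p.2) ≤ D * W := by
    have hmaps : ∀ p ∈ M, p.2 ∈ Sᶜ := fun p hp => (hM p hp).2
    rw [← Finset.sum_fiberwise_of_maps_to hmaps]
    rw [hW, Finset.sum_comm, Finset.mul_sum]
    refine Finset.sum_le_sum fun z hz => ?_
    have : ∑ p ∈ M.filter (fun p => p.2 = z), (∑ v ∈ S, w v p.2)
        = ((M.filter fun p => p.2 = z).card : ℝ) * ∑ v ∈ S, w v z := by
      rw [← nsmul_eq_mul, ← Finset.sum_const]
      refine Finset.sum_congr rfl fun p hp => ?_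
      rw [(Finset.mem_filter.mp hp).2]
    rw [this]
    refine mul_le_mul_of_nonneg_right ?_ (Finset.sum_nonneg fun u _ => h0 _ _)
    exact_mod_cast hD2 z hz
  have hall : ∑ p ∈ M, walk3 w p.1 p.2 ≤ n * (D * W) + (M.card : ℝ) * W + n * (D * W) := by
    calc ∑ p ∈ M, walk3 w p.1 p.2
        ≤ ∑ p ∈ M, (n * (∑ u ∈ Sᶜ, w p.1 u) + W + n * (∑ v ∈ S, w v p.2)) :=
          Finset.sum_le_sum fun p _ => walk3_cut h0 h1 S p.1 p.2
      _ = n * (∑ p ∈ M, ∑ u ∈ Sᶜ, w p.1 u) + (M.card : ℝ) * W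
          + n * (∑ p ∈ M, ∑ v ∈ S, w v p.2) := by
          rw [Finset.sum_add_distrib, Finset.sum_add_distrib, ← Finset.mul_sum, ← Finset.mul_sum]
          simp [Finset.sum_const]
      _ ≤ n * (D * W) + (M.card : ℝ) * W + n * (D * W) := by
          have := mul_le_mul_of_nonneg_left hA hnpos.le
          have := mul_le_mul_of_nonneg_left hC hnpos.le
          linarith
  have hMW : (M.card : ℝ) * W ≤ n * W := by
    refine mul_le_mul_of_nonneg_right ?_ hWnn
    rw [hn]; exact_mod_cast hMn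
  have hfin : (c * n * (M.card : ℝ)) * n ≤ ((2 * D + 1) * W) * n := by nlinarith
  exact le_of_mul_le_mul_right hfin hnpos

end Vale.Agent.P061
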