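import Mathlib
import Vale.Agent.P061.Defs
import Vale.Agent.P061.Robust
import Vale.Agent.P061.Forest2
import Vale.Agent.P061.Bridge

/-!
The strong thin tree conjecture for dense multigraphs.
-/

namespace Vale.Agent.P061

open Finset SimpleGraph Multigraph

variable {V E : Type} [Fintype V] [Fintype E]

lemma walk3_symm {w : V → V → ℝ} (hsymm : ∀ x y, w x y = w y x) (x z : V) :
    walk3 w x z = walk3 w z x := by
  unfold walk3
  rw [Finset.sum_comm]
  refine Finset.sum_congr rfl fun v _ => Finset.sum_congr rfl fun u _ => ?_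
  rw [hsymm x u, hsymm u v, hsymm v z]; ring

theorem dense_thin (G : Multigraph V E) {δ : ℝ} (hδ : 0 < δ) {μ k : ℕ} (hk : 1 ≤ k)
    (hV : 2 ≤ Fintype.card V) (hμ : ∀ x y, G.mult x y ≤ μ)
    (hdeg : ∀ v, δ * μ * (Fintype.card V : ℝ) ≤ (G.degree v : ℝ))
    (hconn : G.EdgeConnected k) :
    ∃ T : Finset E, G.IsSpanningTree T ∧ G.IsThin (44 / δ ^ 6 / k) T := by
  classical
  have : Nontrivial V := Fintype.one_lt_card_iff_nontrivial.mp (by omega)
  have : Nonempty V := Nontrivial.to_nonempty
  set n : ℝ := (Fintype.card V : ℝ) with hn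
  have hn2 : (2 : ℝ) ≤ n := by rw [hn]; exact_mod_cast hV
  have hnpos : 0 < n := by linarith
  have hkpos : (0 : ℝ) < k := by
    have : 0 < k := by omega
    exact_mod_cast this
  obtain ⟨v₀⟩ := ‹Nonempty V›
  -- degree bounds
  have hdegk : ∀ v, k ≤ G.degree v := by
    intro v
    rw [degree_eq_cut]
    refine hconn {v} ⟨v, Finset.mem_singleton_self v⟩ ?_
    intro h
    have h1 : ({v} : Finset V).card = Fintype.card V := by rw [h]; exact Finset.card_univ
    rw [Finset.card_singleton] at h1
    omega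
  have hdegup : ∀ v, (G.degree v : ℝ) ≤ μ * (n - 1) := by
    intro v
    have h1 : G.degree v = ∑ y ∈ ({v} : Finset V)ᶜ, G.mult v y := by
      rw [degree_eq_cut, card_cut, Finset.sum_singleton]
    have h2 : G.degree v ≤ (({v} : Finset V)ᶜ).card • μ := by
      rw [h1]; exact Finset.sum_le_card_nsmul _ _ _ fun y _ => hμ v y
    rw [Finset.card_compl, Finset.card_singleton, smul_eq_mul] at h2
    have h3 : (G.degree v : ℝ) ≤ ((Fintype.card V - 1 : ℕ) : ℝ) * μ := by exact_mod_cast h2
    rw [Nat.cast_sub (by omega)] at h3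
    rw [hn]; push_cast at h3; linarith
  have hμpos : (0 : ℝ) < μ := by
    have h1 : (0 : ℝ) < G.degree v₀ := by
      have := hdegk v₀
      have : 0 < G.degree v₀ := by omega
      exact_mod_cast this
    have h2 := hdegup v₀
    by_contra h
    have h3 : (μ : ℝ) = 0 := le_antisymm (not_lt.mp h) (Nat.cast_nonneg μ)
    rw [h3] at h2; linarith
  have hkn : (k : ℝ) ≤ μ * n := by
    have h1 : (k : ℝ) ≤ G.degree v₀ := by exact_mod_cast hdegk v₀
    have h2 := hdegup v₀
    nlinarith
  have hδ1 : δ ≤ 1 := by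
    have h1 := hdeg v₀
    have h2 := hdegup v₀
    by_contra h
    push Not at h
    have h3 : μ * n ≤ δ * (μ * n) := by
      have : 0 ≤ μ * n := by positivity
      nlinarith
    nlinarith
  -- the weights
  let w : V → V → ℝ := fun x y => (G.mult x y : ℝ) / μ
  have h0 : ∀ x y, 0 ≤ w x y := fun x y => div_nonneg (Nat.cast_nonneg _) hμpos.le
  have h1 : ∀ x y, w x y ≤ 1 := by
    intro x y
    rw [div_le_one hμpos]
    exact_mod_cast hμ x y
  have hsymm : ∀ x y, w x y = w y x := by
    intro x y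
    simp only [w, G.mult_comm x y]
  have hdegw : ∀ x, δ * (Fintype.card V : ℝ) ≤ ∑ y, w x y := by
    intro x
    have h2 : ∑ y, w x y = (G.degree x : ℝ) / μ := by
      rw [degree_eq_sum]; push_cast
      rw [Finset.sum_div]
    rw [h2, le_div_iff₀ hμpos]
    have := hdeg x
    rw [← hn]; linarith
  set η : ℝ := δ ^ 3 / 2 with hη
  have hηpos : 0 < η := by positivity
  have hδ3 : δ ^ 3 ≤ 1 := pow_le_one₀ hδ.le hδ1
  have hη1 : η ≤ 1 / 2 := by rw [hη]; linarith
  -- the robust graph
  let R : SimpleGraph V :=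
    { Adj := fun x z => 0 < w x z ∧ η * n ^ 2 ≤ walk3 w x z
      symm := ⟨fun x z h => ⟨by rw [hsymm]; exact h.1, by rw [walk3_symm hsymm]; exact h.2⟩⟩
      loopless := ⟨fun x h => by
        have h2 := h.1
        simp only [w, G.mult_self x] at h2
        simp at h2⟩ }
  have hRadj : ∀ x z, R.Adj x z ↔ 0 < w x z ∧ η * n ^ 2 ≤ walk3 w x z := fun x z => Iff.rfl
  have hRsupp : R ≤ G.supp := by
    intro x z hxz
    rw [supp_adj]
    have h2 := ((hRadj x z).mp hxz).1
    by_contra h3
    have h4 : G.mult x z = 0 := by omega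
    simp only [w, h4] at h2
    simp at h2
  have hRdeg : ∀ v, η * (Fintype.card V : ℝ) ≤ ((R.neighborSet v).ncard : ℝ) := by
    intro v
    have h2 := card_robust_ge h0 h1 hsymm hδ hdegw v
    have h3 : R.neighborSet v
        = ((univ.filter fun z => 0 < w v z ∧
          δ ^ 3 / 2 * (Fintype.card V : ℝ) ^ 2 ≤ walk3 w v z : Finset V) : Set V) := by
      ext z
      rw [mem_neighborSet, hRadj]
      simp [hη, hn]
    rw [h3, Set.ncard_coe_finset]
    exact h2
  -- the bounded degree forest
  set D : ℕ := ⌈4 / η⌉₊ with hD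
  have hDge : 4 / η ≤ D := Nat.le_ceil _
  have hDle : (D : ℝ) ≤ 4 / η + 1 := (Nat.ceil_lt_add_one (by positivity)).le
  have h8 : (8 : ℝ) ≤ 4 / η := by
    rw [le_div_iff₀ hηpos]; linarith
  have hD2 : 2 ≤ D := by
    have : (2 : ℝ) ≤ D := by linarith
    exact_mod_cast this
  have hDη : 4 ≤ (D : ℝ) * η := by
    rw [div_le_iff₀ hηpos] at hDge; exact hDge
  obtain ⟨F, hFR, hFac, hFdeg, hFcomp⟩ := exists_forest_few_components R hD2 hDη hRdeg
  have hsuppconn := G.supp_connected hk hconn
  obtain ⟨T, hFT, hTG, hT⟩ :=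
    hsuppconn.exists_isTree_le_of_le_of_isAcyclic (hFR.trans hRsupp) hFac
  obtain ⟨T', hT', hcross⟩ := G.exists_lift hT hTG
  refine ⟨T', hT', ?_⟩
  intro S hSne hSuniv
  rw [hcross S]
  set c : ℝ := ((G.cut S).card : ℝ) with hc
  have hck : (k : ℝ) ≤ c := by rw [hc]; exact_mod_cast hconn S hSne hSuniv
  have hcpos : 0 < c := by linarith
  have hW : ∑ u ∈ S, ∑ v ∈ Sᶜ, w u v = c / μ := by
    rw [hc, card_cut]; push_cast
    simp only [w, Finset.sum_div]
  -- crossing edges of the forest
  have hMF : η * n * ((crossing F S).card : ℝ) ≤ (2 * D + 1) * (c / μ) := by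
    rw [← hW]
    refine crossing_le h0 h1 S (crossing F S) ?_ ?_ ?_ ?_ ?_
    · rintro ⟨x, y⟩ hp
      have := (mem_crossing F S x y).mp hp
      exact ⟨this.1.1, Finset.mem_compl.mpr this.1.2⟩
    · intro x hx
      refine le_trans ?_ (hFdeg x)
      rw [← Set.ncard_coe_finset]
      refine Set.ncard_le_ncard_of_injOn (fun p : V × V => p.2) ?_ ?_ (Set.toFinite _)
      · rintro ⟨a, b⟩ hp
        simp only [Finset.coe_filter, Set.mem_setOf_eq] at hp
        have h2 := (mem_crossing F S a b).mp hp.1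
        rw [mem_neighborSet, ← hp.2]; exact h2.2
      · rintro ⟨a, b⟩ hp ⟨a', b'⟩ hq hab
        simp only [Finset.coe_filter, Set.mem_setOf_eq] at hp hq hab
        rw [Prod.mk.injEq]; exact ⟨hp.2.trans hq.2.symm, hab⟩
    · intro z hz
      refine le_trans ?_ (hFdeg z)
      rw [← Set.ncard_coe_finset]
      refine Set.ncard_le_ncard_of_injOn (fun p : V × V => p.1) ?_ ?_ (Set.toFinite _)
      · rintro ⟨a, b⟩ hp
        simp only [Finset.coe_filter, Set.mem_setOf_eq] at hp
        have h2 := (mem_crossing F S a b).mp hp.1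
        rw [mem_neighborSet, ← hp.2]; exact h2.2.symm
      · rintro ⟨a, b⟩ hp ⟨a', b'⟩ hq hab
        simp only [Finset.coe_filter, Set.mem_setOf_eq] at hp hq hab
        rw [Prod.mk.injEq]; exact ⟨hab, hp.2.trans hq.2.symm⟩
    · -- at most `n` crossing edges in a forest
      have h2 := ncard_edgeSet_lt_of_isAcyclic hFac
      have h3 : (crossing F S).card ≤ F.edgeSet.ncard := by
        rw [← Set.ncard_coe_finset]
        refine Set.ncard_le_ncard_of_injOn (fun p : V × V => s(p.1, p.2)) ?_ ?_ (Set.toFinite _)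
        · rintro ⟨a, b⟩ hp
          exact ((mem_crossing F S a b).mp hp).2
        · rintro ⟨a, b⟩ hp ⟨a', b'⟩ hq hab
          have hp' := (mem_crossing F S a b).mp hp
          have hq' := (mem_crossing F S a' b').mp hq
          rcases Sym2.eq_iff.mp hab with ⟨h5, h6⟩ | ⟨h5, h6⟩
          · rw [Prod.mk.injEq]; exact ⟨h5, h6⟩
          · simp only at h5 h6
            exact absurd (h5 ▸ hp'.1.1) hq'.1.2
      omega
    · rintro ⟨x, y⟩ hp
      have h2 := (mem_crossing F S x y).mp hp
      exact ((hRadj x y).mp (hFR h2.2)).2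
  -- the remaining tree edges
  have hrest : (crossing T S).card ≤ (crossing F S).card + (T.edgeSet \ F.edgeSet).ncard := by
    have h2 : crossing T S ⊆ crossing F S ∪ (crossing T S).filter fun p => ¬ F.Adj p.1 p.2 := by
      rintro ⟨x, y⟩ hp
      rw [Finset.mem_union, Finset.mem_filter]
      have h3 := (mem_crossing T S x y).mp hp
      by_cases h4 : F.Adj x y
      · exact Or.inl ((mem_crossing F S x y).mpr ⟨h3.1, h4⟩)
      · exact Or.inr ⟨hp, h4⟩
    have h3 : ((crossing T S).filter fun p => ¬ F.Adj p.1 p.2).card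
        ≤ (T.edgeSet \ F.edgeSet).ncard := by
      rw [← Set.ncard_coe_finset]
      refine Set.ncard_le_ncard_of_injOn (fun p : V × V => s(p.1, p.2)) ?_ ?_ (Set.toFinite _)
      · rintro ⟨a, b⟩ hp
        rw [Finset.mem_coe, Finset.mem_filter] at hp
        exact ⟨((mem_crossing T S a b).mp hp.1).2, hp.2⟩
      · rintro ⟨a, b⟩ hp ⟨a', b'⟩ hq hab
        rw [Finset.mem_coe, Finset.mem_filter] at hp hq
        have hp' := (mem_crossing T S a b).mp hp.1
        have hq' := (mem_crossing T S a' b').mp hq.1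
        rcases Sym2.eq_iff.mp hab with ⟨h5, h6⟩ | ⟨h5, h6⟩
        · rw [Prod.mk.injEq]; exact ⟨h5, h6⟩
        · simp only at h5 h6
          exact absurd (h5 ▸ hp'.1.1) hq'.1.2
    calc (crossing T S).card ≤ _ := Finset.card_le_card h2
      _ ≤ _ := Finset.card_union_le _ _
      _ ≤ _ := by omega
  have hTF : (T.edgeSet \ F.edgeSet).ncard + 1 ≤ Nat.card F.ConnectedComponent := by
    have h2 := card_diff_add_card_component hT.isAcyclic _ F hFT rfl
    have h3 : Nat.card T.ConnectedComponent = 1 := by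
      have : Nonempty T.ConnectedComponent := ⟨T.connectedComponentMk v₀⟩
      have : Subsingleton T.ConnectedComponent :=
        hT.connected.preconnected.subsingleton_connectedComponent
      exact Nat.card_of_subsingleton (T.connectedComponentMk v₀)
    omega
  have hTF' : ((T.edgeSet \ F.edgeSet).ncard : ℝ) ≤ 2 / η := by
    rw [le_div_iff₀ hηpos]
    have h2 : ((T.edgeSet \ F.edgeSet).ncard : ℝ) ≤ (Nat.card F.ConnectedComponent : ℝ) := by
      have : (T.edgeSet \ F.edgeSet).ncard ≤ Nat.card F.ConnectedComponent := by omega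
      exact_mod_cast this
    nlinarith
  have hrest' : ((crossing T S).card : ℝ) ≤ ((crossing F S).card : ℝ) + 2 / η := by
    have : ((crossing T S).card : ℝ)
        ≤ ((crossing F S).card : ℝ) + ((T.edgeSet \ F.edgeSet).ncard : ℝ) := by
      exact_mod_cast hrest
    linarith
  -- final computation
  have hF2 : ((crossing F S).card : ℝ) ≤ 10 / η ^ 2 / k * c := by
    have h2 : (2 * D + 1 : ℝ) ≤ 10 / η := by
      have : 3 ≤ 2 / η := by
        rw [le_div_iff₀ hηpos]; linarith
      have h4 : 10 / η = 2 * (4 / η) + 2 / η := by ring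
      rw [h4]; linarith
    have h3 : η * n * ((crossing F S).card : ℝ) ≤ 10 / η * (c / μ) :=
      hMF.trans (mul_le_mul_of_nonneg_right h2 (by positivity))
    have h4 : ((crossing F S).card : ℝ) ≤ 10 / η ^ 2 * c / (μ * n) := by
      rw [le_div_iff₀ (by positivity)]
      have h5 : η * n * ((crossing F S).card : ℝ) * μ ≤ 10 / η * c := by
        have := mul_le_mul_of_nonneg_right h3 hμpos.le
        have h6 : 10 / η * (c / μ) * μ = 10 / η * c := by
          field_simp
        linarith
      have h7 : 10 / η ^ 2 * c = (10 / η * c) / η := by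
        field_simp
      rw [h7, le_div_iff₀ hηpos]
      linarith
    refine h4.trans ?_
    have h5 : 10 / η ^ 2 / k * c = 10 / η ^ 2 * c / k := by ring
    rw [h5]
    exact div_le_div_of_nonneg_left (by positivity) hkpos hkn
  have h2η : 2 / η ≤ 2 / η / k * c := by
    have h2 : 2 / η / k * c = 2 / η * (c / k) := by ring
    rw [h2]
    have h3 : 1 ≤ c / k := by rw [le_div_iff₀ hkpos]; linarith
    have h4 : 0 < 2 / η := by positivity
    nlinarith
  have hfin : 10 / η ^ 2 + 2 / η ≤ 44 / δ ^ 6 := by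
    have h2 : 10 / η ^ 2 = 40 / δ ^ 6 := by
      rw [hη]; field_simp; norm_num
    have h3 : 2 / η = 4 * δ ^ 3 / δ ^ 6 := by
      rw [hη]; field_simp; norm_num
    rw [h2, h3, ← add_div]
    exact div_le_div_of_nonneg_right (by linarith) (by positivity)
  calc ((crossing T S).card : ℝ) ≤ ((crossing F S).card : ℝ) + 2 / η := hrest'
    _ ≤ 10 / η ^ 2 / k * c + 2 / η / k * c := by linarith
    _ = (10 / η ^ 2 + 2 / η) / k * c := by ring
    _ ≤ 44 / δ ^ 6 / k * c := by
        refine mul_le_mul_of_nonneg_right ?_ hcpos.le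
        exact div_le_div_of_nonneg_right hfin hkpos.le

end Vale.Agent.P061
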